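import Mathlib

/-!
# Laguerre map of a price vector

For sites `y j`, prices `c j` and a compact set `K` of positive volume whose
Laguerre cells have volume `w j * vol K`, the map sending `x` to the site
`y j` of the first index `j` maximising `k ↦ ⟪x, y k⟫ - c k` is measurable,
takes values among the sites, is a subgradient selection of the Laguerre
potential `x ↦ ⨆ j, (⟪x, y j⟫ - c j)`, and pushes the normalised Lebesgue
measure on `K` forward to `∑ j, w j • δ_{y j}`.
-/

namespace Vale.Agent.H50

open MeasureTheory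

/-- An affine hyperplane `{x | ⟪x, v⟫ = t}` with `v ≠ 0` is Lebesgue-null. -/
theorem volume_hyperplane_eq_zero {d : ℕ} (v : EuclideanSpace ℝ (Fin d)) (hv : v ≠ 0) (t : ℝ) :
    (volume : Measure (EuclideanSpace ℝ (Fin d))) {x | inner ℝ x v = t} = 0 := by
  have hvv : inner ℝ v v ≠ 0 := by
    intro h
    exact hv (inner_self_eq_zero.1 h)
  have hset : {x : EuclideanSpace ℝ (Fin d) | inner ℝ x v = t}
      = (fun h => (-((t / inner ℝ v v) • v)) + h) ⁻¹'
        (((ℝ ∙ v)ᗮ : Submodule ℝ (EuclideanSpace ℝ (Fin d))) :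
          Set (EuclideanSpace ℝ (Fin d))) := by
    ext x
    simp only [Set.mem_ofPred_eq, Set.mem_preimage, SetLike.mem_coe,
      Submodule.mem_orthogonal_singleton_iff_inner_left]
    rw [inner_add_left, inner_neg_left, real_inner_smul_left]
    have : t / inner ℝ v v * inner ℝ v v = t := div_mul_cancel₀ t hvv
    rw [this]
    constructor <;> intro h <;> linarith
  rw [hset, measure_preimage_add]
  apply Measure.addHaar_submodule
  intro htop
  have hmem : v ∈ ((ℝ ∙ v)ᗮ : Submodule ℝ (EuclideanSpace ℝ (Fin d))) := by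
    rw [htop]
    trivial
  rw [Submodule.mem_orthogonal_singleton_iff_inner_left] at hmem
  exact hvv hmem

theorem exists_lagMap {d : ℕ} {ι : Type*} [Fintype ι] [Nonempty ι]
    {K : Set (EuclideanSpace ℝ (Fin d))} (hKc : IsCompact K)
    (hKpos : (MeasureTheory.volume : MeasureTheory.Measure (EuclideanSpace ℝ (Fin d))) K ≠ 0)
    (y : ι → EuclideanSpace ℝ (Fin d)) (hy : Function.Injective y) (w : ι → ℝ) (c : ι → ℝ)
    (hc : ∀ j, (MeasureTheory.volume : MeasureTheory.Measure (EuclideanSpace ℝ (Fin d))).real
        {x | x ∈ K ∧ ∀ k, inner ℝ x (y k) - c k ≤ inner ℝ x (y j) - c j}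
          = w j * (MeasureTheory.volume : MeasureTheory.Measure (EuclideanSpace ℝ (Fin d))).real K) :
    ∃ T : EuclideanSpace ℝ (Fin d) → EuclideanSpace ℝ (Fin d), Measurable T ∧
      (∀ x, ∃ j, T x = y j) ∧
      (∀ x z, (⨆ j, (inner ℝ x (y j) - c j)) + inner ℝ (T x) (z - x)
          ≤ ⨆ j, (inner ℝ z (y j) - c j)) ∧
      (ProbabilityTheory.cond MeasureTheory.volume K).map T
        = ∑ j, ENNReal.ofReal (w j) • MeasureTheory.Measure.dirac (y j) := by
  classical
  have hfc : ∀ j, Continuous (fun x : EuclideanSpace ℝ (Fin d) => inner ℝ x (y j) - c j) :=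
    fun j => by fun_prop
  -- existence of a first maximiser
  have hMne : ∀ x : EuclideanSpace ℝ (Fin d), ∃ j : ι,
      (∀ k, inner ℝ x (y k) - c k ≤ inner ℝ x (y j) - c j) ∧
      ∀ k, (∀ l, inner ℝ x (y l) - c l ≤ inner ℝ x (y k) - c k) →
        Fintype.equivFin ι j ≤ Fintype.equivFin ι k := by
    intro x
    obtain ⟨j0, -, hj0⟩ := Finset.exists_max_image Finset.univ
      (fun j => inner ℝ x (y j) - c j) Finset.univ_nonempty
    have hne : (Finset.univ.filter
        (fun j => ∀ k, inner ℝ x (y k) - c k ≤ inner ℝ x (y j) - c j)).Nonempty :=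
      ⟨j0, Finset.mem_filter.2 ⟨Finset.mem_univ _, fun k => hj0 k (Finset.mem_univ k)⟩⟩
    obtain ⟨j, hj, hjmin⟩ := Finset.exists_min_image _ (fun j => Fintype.equivFin ι j) hne
    exact ⟨j, (Finset.mem_filter.1 hj).2,
      fun k hk => hjmin k (Finset.mem_filter.2 ⟨Finset.mem_univ k, hk⟩)⟩
  choose sel hselM hselmin using hMne
  have hsel_iff : ∀ x j, sel x = j ↔
      ((∀ k, inner ℝ x (y k) - c k ≤ inner ℝ x (y j) - c j) ∧
      ∀ k, (∀ l, inner ℝ x (y l) - c l ≤ inner ℝ x (y k) - c k) →
        Fintype.equivFin ι j ≤ Fintype.equivFin ι k) := by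
    intro x j
    constructor
    · rintro rfl
      exact ⟨hselM x, hselmin x⟩
    · rintro ⟨h1, h2⟩
      apply (Fintype.equivFin ι).injective
      exact le_antisymm (hselmin x j h1) (h2 _ (hselM x))
  have hMmeas : ∀ j, MeasurableSet {x : EuclideanSpace ℝ (Fin d) |
      ∀ k, inner ℝ x (y k) - c k ≤ inner ℝ x (y j) - c j} := by
    intro j
    have : {x : EuclideanSpace ℝ (Fin d) | ∀ k, inner ℝ x (y k) - c k ≤ inner ℝ x (y j) - c j}
        = ⋂ k, {x | inner ℝ x (y k) - c k ≤ inner ℝ x (y j) - c j} := by
      ext x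
      simp
    rw [this]
    exact MeasurableSet.iInter fun k => (isClosed_le (hfc k) (hfc j)).measurableSet
  have hselmeas : ∀ j, MeasurableSet (sel ⁻¹' {j}) := by
    intro j
    have : sel ⁻¹' {j} = {x : EuclideanSpace ℝ (Fin d) |
          ∀ k, inner ℝ x (y k) - c k ≤ inner ℝ x (y j) - c j} ∩
        ⋂ k, ({x : EuclideanSpace ℝ (Fin d) |
          ∀ l, inner ℝ x (y l) - c l ≤ inner ℝ x (y k) - c k}ᶜ ∪
            {_x | Fintype.equivFin ι j ≤ Fintype.equivFin ι k}) := by
      ext x
      simp only [Set.mem_preimage, Set.mem_singleton_iff, hsel_iff, Set.mem_inter_iff,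
        Set.mem_ofPred_eq, Set.mem_iInter, Set.mem_union, Set.mem_compl_iff]
      constructor
      · rintro ⟨h1, h2⟩
        refine ⟨h1, fun k => ?_⟩
        by_cases hk : ∀ l, inner ℝ x (y l) - c l ≤ inner ℝ x (y k) - c k
        · exact Or.inr (h2 k hk)
        · exact Or.inl hk
      · rintro ⟨h1, h2⟩
        exact ⟨h1, fun k hk => (h2 k).resolve_left (not_not.2 hk)⟩
    rw [this]
    exact (hMmeas j).inter
      (MeasurableSet.iInter fun k => (hMmeas k).compl.union (MeasurableSet.const _))
  let _ : MeasurableSpace ι := ⊤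
  have : MeasurableSingletonClass ι := ⟨fun _ => MeasurableSpace.measurableSet_top⟩
  have hsel : Measurable sel := measurable_to_countable' hselmeas
  have hym : Measurable y := measurable_from_top
  refine ⟨fun x => y (sel x), hym.comp hsel, fun x => ⟨sel x, rfl⟩, ?_, ?_⟩
  · intro x z
    have hbdd : ∀ u : EuclideanSpace ℝ (Fin d),
        BddAbove (Set.range fun j => inner ℝ u (y j) - c j) :=
      fun u => (Set.finite_range _).bddAbove
    have hsup : (⨆ j, (inner ℝ x (y j) - c j)) = inner ℝ x (y (sel x)) - c (sel x) :=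
      le_antisymm (ciSup_le fun k => hselM x k) (le_ciSup (hbdd x) (sel x))
    rw [hsup]
    refine le_trans (le_of_eq ?_) (le_ciSup (hbdd z) (sel x))
    rw [inner_sub_right, real_inner_comm z (y (sel x)), real_inner_comm x (y (sel x))]
    ring
  · have hKm : MeasurableSet K := hKc.isClosed.measurableSet
    have hKfin : (volume : Measure (EuclideanSpace ℝ (Fin d))) K ≠ ⊤ := hKc.measure_lt_top.ne
    have hmap : (ProbabilityTheory.cond (volume : Measure (EuclideanSpace ℝ (Fin d))) K).map
        (fun x => y (sel x))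
        = ((ProbabilityTheory.cond (volume : Measure (EuclideanSpace ℝ (Fin d))) K).map sel).map
          y := (Measure.map_map hym hsel).symm
    rw [hmap]
    have hcell : ∀ j, (volume : Measure (EuclideanSpace ℝ (Fin d))) (K ∩ sel ⁻¹' {j})
        = volume {x | x ∈ K ∧ ∀ k, inner ℝ x (y k) - c k ≤ inner ℝ x (y j) - c j} := by
      intro j
      apply le_antisymm
      · apply measure_mono
        rintro x ⟨hxK, hx⟩
        have hxj : sel x = j := hx
        exact ⟨hxK, hxj ▸ hselM x⟩
      · have hN : (volume : Measure (EuclideanSpace ℝ (Fin d)))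
            (⋃ k ∈ {k : ι | k ≠ j}, {x | inner ℝ x (y k - y j) = c k - c j}) = 0 := by
          rw [measure_biUnion_null_iff (Set.to_countable _)]
          intro k hk
          exact volume_hyperplane_eq_zero _ (sub_ne_zero.2 fun h => hk (hy h)) _
        calc (volume : Measure (EuclideanSpace ℝ (Fin d)))
              {x | x ∈ K ∧ ∀ k, inner ℝ x (y k) - c k ≤ inner ℝ x (y j) - c j}
            ≤ volume ((K ∩ sel ⁻¹' {j}) ∪
                ⋃ k ∈ {k : ι | k ≠ j}, {x | inner ℝ x (y k - y j) = c k - c j}) := by
              apply measure_mono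
              rintro x ⟨hxK, hx⟩
              by_cases hs : sel x = j
              · exact Or.inl ⟨hxK, hs⟩
              · right
                simp only [Set.mem_iUnion, Set.mem_ofPred_eq, exists_prop]
                refine ⟨sel x, hs, ?_⟩
                have h1 := hx (sel x)
                have h2 := hselM x j
                rw [inner_sub_right]
                linarith
          _ ≤ volume (K ∩ sel ⁻¹' {j}) +
                volume (⋃ k ∈ {k : ι | k ≠ j}, {x | inner ℝ x (y k - y j) = c k - c j}) :=
              measure_union_le _ _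
          _ = volume (K ∩ sel ⁻¹' {j}) := by rw [hN, add_zero]
    have hw : ∀ j, 0 ≤ w j := by
      intro j
      have h1 := hc j
      have h2 : 0 < (volume : Measure (EuclideanSpace ℝ (Fin d))).real K :=
        ENNReal.toReal_pos hKpos hKfin
      have h3 : 0 ≤ (volume : Measure (EuclideanSpace ℝ (Fin d))).real
          {x | x ∈ K ∧ ∀ k, inner ℝ x (y k) - c k ≤ inner ℝ x (y j) - c j} := measureReal_nonneg
      by_contra hneg
      push Not at hneg
      nlinarith
    have key : ∀ j, ((ProbabilityTheory.cond (volume : Measure (EuclideanSpace ℝ (Fin d))) K).map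
        sel) {j} = ENNReal.ofReal (w j) := by
      intro j
      rw [Measure.map_apply hsel (measurableSet_singleton j), ProbabilityTheory.cond_apply hKm,
        hcell j]
      have hfin : (volume : Measure (EuclideanSpace ℝ (Fin d)))
          {x | x ∈ K ∧ ∀ k, inner ℝ x (y k) - c k ≤ inner ℝ x (y j) - c j} ≠ ⊤ :=
        ne_top_of_le_ne_top hKfin (measure_mono fun x hx => hx.1)
      have h1 := hc j
      rw [measureReal_def, measureReal_def] at h1
      rw [← ENNReal.ofReal_toReal hfin, h1, ENNReal.ofReal_mul (hw j),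
        ENNReal.ofReal_toReal hKfin, mul_comm, mul_assoc, ENNReal.mul_inv_cancel hKpos hKfin,
        mul_one]
    have hν : (ProbabilityTheory.cond (volume : Measure (EuclideanSpace ℝ (Fin d))) K).map sel
        = ∑ j, ENNReal.ofReal (w j) • Measure.dirac j := by
      conv_lhs => rw [← Measure.sum_smul_dirac
        ((ProbabilityTheory.cond (volume : Measure (EuclideanSpace ℝ (Fin d))) K).map sel)]
      rw [Measure.sum_fintype]
      exact Finset.sum_congr rfl fun j _ => by rw [key j]
    rw [hν, ← Measure.mapₗ_apply_of_measurable hym, map_sum]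
    refine Finset.sum_congr rfl fun j _ => ?_
    rw [map_smul, Measure.mapₗ_apply_of_measurable hym, Measure.map_dirac' hym]

end Vale.Agent.H50
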