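import Mathlib

namespace Vale.Agent.H50

/-- `x ↦ diag(x, 1)` -/
def diagHom0 : ℂˣ →* Matrix (Fin 2) (Fin 2) ℂ where
  toFun x := !![(x : ℂ), 0; 0, 1]
  map_one' := by
    rw [Matrix.one_fin_two]; simp
  map_mul' x y := by
    rw [Matrix.mul_fin_two]; simp

/-- `x ↦ [[x, 1 - x], [0, 1]]` -/
def affHom0 : ℂˣ →* Matrix (Fin 2) (Fin 2) ℂ where
  toFun x := !![(x : ℂ), 1 - (x : ℂ); 0, 1]
  map_one' := by
    rw [Matrix.one_fin_two]; simp
  map_mul' x y := by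
    rw [Matrix.mul_fin_two]; simp; ring

/-- `s ↦ [[1, s], [0, 1]]` -/
def trHom0 : Multiplicative ℂ →* Matrix (Fin 2) (Fin 2) ℂ where
  toFun s := !![1, Multiplicative.toAdd s; 0, 1]
  map_one' := by
    rw [Matrix.one_fin_two]; simp
  map_mul' x y := by
    rw [Matrix.mul_fin_two]; simp; ring

noncomputable def diagHom : ℂˣ →* (Matrix (Fin 2) (Fin 2) ℂ)ˣ := diagHom0.toHomUnits
noncomputable def affHom : ℂˣ →* (Matrix (Fin 2) (Fin 2) ℂ)ˣ := affHom0.toHomUnits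
noncomputable def trHom : Multiplicative ℂ →* (Matrix (Fin 2) (Fin 2) ℂ)ˣ := trHom0.toHomUnits

theorem diag_aff_comm (ζ ξ : ℂˣ) :
    diagHom ζ * affHom ξ =
      trHom (Multiplicative.ofAdd (((ζ : ℂ) - 1) * (1 - (ξ : ℂ)))) * affHom ξ * diagHom ζ := by
  apply Units.ext
  simp only [diagHom, affHom, trHom, Units.val_mul, MonoidHom.coe_toHomUnits]
  simp only [diagHom0, affHom0, trHom0, MonoidHom.coe_mk, OneHom.coe_mk, toAdd_ofAdd]
  rw [Matrix.mul_fin_two, Matrix.mul_fin_two, Matrix.mul_fin_two]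
  congr 1
  ext i j
  fin_cases i <;> fin_cases j <;> simp <;> ring

theorem diag_aff_commutator (ζ ξ : ℂˣ) :
    diagHom ζ * affHom ξ * (diagHom ζ)⁻¹ * (affHom ξ)⁻¹ =
      trHom (Multiplicative.ofAdd (((ζ : ℂ) - 1) * (1 - (ξ : ℂ)))) := by
  rw [diag_aff_comm]
  group

theorem trHom_eq_one {s : Multiplicative ℂ} (h : trHom s = 1) : Multiplicative.toAdd s = 0 := by
  have h2 := congrArg (fun u : (Matrix (Fin 2) (Fin 2) ℂ)ˣ => (u : Matrix (Fin 2) (Fin 2) ℂ) 0 1) h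
  simpa [trHom, trHom0, MonoidHom.coe_toHomUnits] using h2

theorem exists_root_of_unity (n : ℕ) (hn : 2 ≤ n) : ∃ ζ : ℂˣ, ζ ^ n = 1 ∧ (ζ : ℂ) ≠ 1 := by
  have h := Complex.isPrimitiveRoot_exp n (by omega)
  obtain ⟨u, hu⟩ := h.isUnit (by omega)
  refine ⟨u, ?_, ?_⟩
  · apply Units.ext
    rw [Units.val_pow_eq_pow_val, hu]
    exact h.pow_eq_one
  · rw [hu]
    exact h.ne_one (by omega)

theorem zpow_eq_one_of_natAbs {G : Type*} [Group G] (u : G) (p : ℤ) (h : u ^ p.natAbs = 1) :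
    u ^ p = 1 := by
  rcases Int.natAbs_eq p with hp | hp
  · rw [hp, zpow_natCast]; exact h
  · rw [hp, zpow_neg, zpow_natCast, h, inv_one]

end Vale.Agent.H50
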