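import Mathlib

/-!
Baumslag-Solitar groups and Baumslag-Solitar-free groups.
-/

namespace Vale.Agent.H50

/-- The Baumslag-Solitar relator `t a^m t⁻¹ a^(-n)` in the free group on two generators,
where `a` is the generator with index `0` and `t` is the generator with index `1`. -/
def bsRel (m n : ℤ) : FreeGroup (Fin 2) :=
  FreeGroup.of 1 * FreeGroup.of 0 ^ m * (FreeGroup.of 1)⁻¹ * (FreeGroup.of 0 ^ n)⁻¹

/-- The Baumslag-Solitar group `BS(m,n) = ⟨a, t | t a^m t⁻¹ = a^n⟩`. -/
abbrev BS (m n : ℤ) : Type := PresentedGroup ({bsRel m n} : Set (FreeGroup (Fin 2)))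

/-- A group is Baumslag-Solitar-free if it has no subgroup isomorphic to `BS(m,n)` with
`m, n` nonzero, that is, if no `BS(m,n)` with `m, n ≠ 0` admits an injective homomorphism
into it. -/
def BSFree (G : Type*) [Group G] : Prop :=
  ∀ m n : ℤ, m ≠ 0 → n ≠ 0 → ∀ f : BS m n →* G, ¬ Function.Injective f

end Vale.Agent.H50
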