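import Mathlib
import Vale.Agent.H50.BSDefs
import Vale.Agent.H50.AffRep

namespace Vale.Agent.H50

theorem diag_tr_comm (x : ℂˣ) (s : ℂ) :
    diagHom x * trHom (Multiplicative.ofAdd s) =
      trHom (Multiplicative.ofAdd ((x : ℂ) * s)) * diagHom x := by
  apply Units.ext
  simp only [diagHom, trHom, Units.val_mul, MonoidHom.coe_toHomUnits]
  simp only [diagHom0, trHom0, MonoidHom.coe_mk, OneHom.coe_mk, toAdd_ofAdd]
  rw [Matrix.mul_fin_two, Matrix.mul_fin_two]
  congr 1
  ext i j
  fin_cases i <;> fin_cases j <;> simp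

/-- In `BS(m,n)` with `m, n ≠ 0` the generator `a` is nontrivial. -/
theorem bs_a_ne_one (m n : ℤ) (hm : m ≠ 0) (hn : n ≠ 0) :
    (PresentedGroup.of 0 : BS m n) ≠ 1 := by
  have hmC : (m : ℂ) ≠ 0 := by exact_mod_cast hm
  have hnC : (n : ℂ) ≠ 0 := by exact_mod_cast hn
  let lam : ℂˣ := Units.mk0 ((n : ℂ) / (m : ℂ)) (div_ne_zero hnC hmC)
  have h : ∀ r ∈ ({bsRel m n} : Set (FreeGroup (Fin 2))),
      FreeGroup.lift (![trHom (Multiplicative.ofAdd 1), diagHom lam] :
        Fin 2 → (Matrix (Fin 2) (Fin 2) ℂ)ˣ) r = 1 := by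
    intro r hr
    rw [Set.mem_singleton_iff] at hr
    subst hr
    simp only [bsRel, map_mul, map_zpow, map_inv, FreeGroup.lift_apply_of, Matrix.cons_val_zero,
      Matrix.cons_val_one]
    have e1 : ∀ k : ℤ, trHom (Multiplicative.ofAdd (1 : ℂ)) ^ k =
        trHom (Multiplicative.ofAdd (k : ℂ)) := by
      intro k
      rw [← MonoidHom.map_zpow trHom, ← ofAdd_zsmul]
      simp
    rw [e1, e1, diag_tr_comm]
    have : ((lam : ℂˣ) : ℂ) * (m : ℂ) = (n : ℂ) := by
      simp only [lam, Units.val_mk0]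
      field_simp
    rw [this]
    group
  let ρ : BS m n →* (Matrix (Fin 2) (Fin 2) ℂ)ˣ := PresentedGroup.toGroup h
  intro ha
  have h1 : ρ (PresentedGroup.of 0) = 1 := by rw [ha, map_one]
  have h2 : ρ (PresentedGroup.of 0) = trHom (Multiplicative.ofAdd 1) := by
    simp [ρ, PresentedGroup.toGroup.of]
  rw [h2] at h1
  have h3 := trHom_eq_one h1
  simp at h3

/-- Cyclic groups are Baumslag-Solitar-free. -/
theorem bsFree_of_isCyclic (G : Type*) [Group G] [IsCyclic G] : BSFree G := by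
  intro m n hm hn f hf
  obtain ⟨g, hg⟩ := IsCyclic.exists_generator (α := G)
  obtain ⟨k, hk⟩ := hg (f (PresentedGroup.of 0))
  obtain ⟨l, hl⟩ := hg (f (PresentedGroup.of 1))
  simp only at hk hl
  have h1 : (PresentedGroup.of 0 : BS m n) ^ l = (PresentedGroup.of 1 : BS m n) ^ k := by
    apply hf
    rw [map_zpow, map_zpow, ← hk, ← hl, ← zpow_mul, ← zpow_mul, mul_comm]
  -- the homomorphism to ℤ sending a to 0 and t to 1
  have h : ∀ r ∈ ({bsRel m n} : Set (FreeGroup (Fin 2))),
      FreeGroup.lift (![1, Multiplicative.ofAdd 1] : Fin 2 → Multiplicative ℤ) r = 1 := by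
    intro r hr
    rw [Set.mem_singleton_iff] at hr
    subst hr
    simp [bsRel]
  let χ : BS m n →* Multiplicative ℤ := PresentedGroup.toGroup h
  have h2 := congrArg χ h1
  have hk0 : k = 0 := by
    simp only [map_zpow, χ, PresentedGroup.toGroup.of, Matrix.cons_val_zero,
      Matrix.cons_val_one, one_zpow] at h2
    have h3 := congrArg Multiplicative.toAdd h2
    simpa using h3.symm
  rw [hk0, zpow_zero] at hk
  have ha : (PresentedGroup.of 0 : BS m n) = 1 := by
    apply hf
    rw [← hk, map_one]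
  exact bs_a_ne_one m n hm hn ha

end Vale.Agent.H50
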