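import Mathlib

/-!
Word-hyperbolic groups, defined through thin geodesic triangles in Cayley graphs
(`SimpleGraph.mulCayley` is the Cayley graph of Mathlib).
-/

namespace Vale.Agent.H50

/-- Every vertex in the list `A` is within graph distance `δ` of some vertex
lying in the list `B` or in the list `C`. -/
def NearUnion {V : Type*} (Γ : SimpleGraph V) (δ : ℕ) (A B C : List V) : Prop :=
  ∀ v ∈ A, ∃ w, (w ∈ B ∨ w ∈ C) ∧ Γ.dist v w ≤ δ

/-- All geodesic triangles of the graph `Γ` are `δ`-thin: whenever `p`, `q`, `r` are
geodesic walks (walks whose length equals the graph distance of their endpoints)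
from `x` to `y`, from `y` to `z` and from `z` to `x`, every vertex on each of the three
sides is within distance `δ` of a vertex on the union of the other two sides. -/
def ThinTriangles {V : Type*} (Γ : SimpleGraph V) (δ : ℕ) : Prop :=
  ∀ (x y z : V) (p : Γ.Walk x y) (q : Γ.Walk y z) (r : Γ.Walk z x),
    p.length = Γ.dist x y → q.length = Γ.dist y z → r.length = Γ.dist z x →
    NearUnion Γ δ p.support q.support r.support ∧
    NearUnion Γ δ q.support r.support p.support ∧
    NearUnion Γ δ r.support p.support q.support

/-- A group is word-hyperbolic if it has a finite generating set `S` such that, for some `δ`,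
all geodesic triangles in the Cayley graph with respect to `S` are `δ`-thin. -/
def WordHyperbolic (G : Type*) [Group G] : Prop :=
  ∃ S : Finset G, Subgroup.closure (S : Set G) = ⊤ ∧
    ∃ δ : ℕ, ThinTriangles (SimpleGraph.mulCayley (S : Set G)) δ

end Vale.Agent.H50
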