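import Mathlib
import Vale.Agent.H50.HypDefs

namespace Vale.Agent.H50

open SimpleGraph

theorem thinTriangles_of_one_side {V : Type*} (Γ : SimpleGraph V) (δ : ℕ)
    (h : ∀ (x y z : V) (p : Γ.Walk x y) (q : Γ.Walk y z) (r : Γ.Walk z x),
      p.length = Γ.dist x y → q.length = Γ.dist y z → r.length = Γ.dist z x →
      NearUnion Γ δ p.support q.support r.support) :
    ThinTriangles Γ δ := by
  intro x y z p q r hp hq hr
  exact ⟨h x y z p q r hp hq hr, h y z x q r p hq hr hp, h z x y r p q hr hp hq⟩

/-- In an acyclic graph all geodesic triangles are `0`-thin. -/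
theorem thinTriangles_of_isAcyclic {V : Type*} (Γ : SimpleGraph V) (hΓ : Γ.IsAcyclic) :
    ThinTriangles Γ 0 := by
  classical
  apply thinTriangles_of_one_side
  intro x y z p q r hp _ _ v hv
  refine ⟨v, ?_, by simp⟩
  by_contra hcon
  push Not at hcon
  obtain ⟨hvq, hvr⟩ := hcon
  have hpath : p.IsPath := p.isPath_of_length_eq_dist hp
  let w : Γ.Walk x y := r.reverse.append q.reverse
  have hw : w.bypass.IsPath := w.bypass_isPath
  have heq : (⟨p, hpath⟩ : Γ.Path x y) = ⟨w.bypass, hw⟩ := Subsingleton.elim (h := hΓ.subsingleton_path x y) _ _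
  have hpe : p = w.bypass := congrArg Subtype.val heq
  have hv' : v ∈ w.support := by
    apply Walk.support_bypass_subset_support
    rw [← hpe]
    exact hv
  have : v ∈ r.reverse.support ∨ v ∈ q.reverse.support := by
    simpa [w, Walk.mem_support_append_iff] using hv'
  rcases this with h | h
  · exact hvr (by simpa using h)
  · exact hvq (by simpa using h)

theorem wordHyperbolic_of_isAcyclic {G : Type*} [Group G] (S : Finset G)
    (hS : Subgroup.closure (S : Set G) = ⊤)
    (hac : (SimpleGraph.mulCayley (S : Set G)).IsAcyclic) : WordHyperbolic G :=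
  ⟨S, hS, 0, thinTriangles_of_isAcyclic _ hac⟩

theorem walk_support_of_length_le_one {V : Type*} {Γ : SimpleGraph V} {x y : V}
    (p : Γ.Walk x y) (hp : p.length ≤ 1) : ∀ v ∈ p.support, v = x ∨ v = y := by
  intro v hv
  cases p with
  | nil => simp at hv; exact Or.inl hv
  | cons h p' =>
    cases p' with
    | nil => simpa using hv
    | cons _ _ => simp [Walk.length_cons] at hp

/-- Finite groups are word-hyperbolic. -/
theorem wordHyperbolic_of_finite (G : Type*) [Group G] [Finite G] : WordHyperbolic G := by
  classical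
  have := Fintype.ofFinite G
  refine ⟨Finset.univ, by simp, 0, ?_⟩
  apply thinTriangles_of_one_side
  intro x y z p q r hp _ _ v hv
  have hadj : ∀ a b : G, a ≠ b → (SimpleGraph.mulCayley ((Finset.univ : Finset G) : Set G)).Adj a b := by
    intro a b hab
    rw [SimpleGraph.mulCayley_adj']
    exact ⟨hab, a⁻¹ * b, by simp, Or.inl (by simp)⟩
  have hle : p.length ≤ 1 := by
    rw [hp]
    by_cases hxy : x = y
    · subst hxy; simp
    · have := (SimpleGraph.dist_eq_one_iff_adj).mpr (hadj x y hxy)
      omega
  rcases walk_support_of_length_le_one p hle v hv with rfl | rfl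
  · exact ⟨v, Or.inr (Walk.end_mem_support r), by simp⟩
  · exact ⟨v, Or.inl (Walk.start_mem_support q), by simp⟩

end Vale.Agent.H50
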