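import Mathlib
import Vale.Agent.H50.HypBasic

namespace Vale.Agent.H50

open SimpleGraph

/-- The tree of all lists over `β`: a list is joined to each of its one-letter extensions. -/
def listTree (β : Type*) : SimpleGraph (List β) where
  Adj l l' := (∃ x, l' = l ++ [x]) ∨ (∃ x, l = l' ++ [x])
  symm := ⟨by
    intro l l' h
    rcases h with h | h
    · exact Or.inr h
    · exact Or.inl h⟩
  loopless := ⟨by
    intro l h
    rcases h with ⟨x, h⟩ | ⟨x, h⟩ <;>
    · have := congrArg List.length h
      simp at this⟩

theorem listTree_adj_iff_prefix {β : Type*} (v a b : List β) (l : List β) (x : β)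
    (hv : v = l ++ [x])
    (hab : (listTree β).Adj a b) (hne : s(a, b) ≠ s(l, v)) : (v <+: a ↔ v <+: b) := by
  have key : ∀ a b : List β, ∀ y, b = a ++ [y] → s(a, b) ≠ s(l, v) → (v <+: a ↔ v <+: b) := by
    intro a b y hb hne
    subst hb
    constructor
    · intro h
      exact h.trans (List.prefix_append _ _)
    · intro h
      rcases List.prefix_concat_iff.mp h with h | h
      · exfalso
        rw [hv] at h
        have h2 := List.append_inj' h (by simp)
        obtain ⟨h3, h4⟩ := h2
        apply hne
        rw [hv, h3]
        simp at h4
        rw [h4]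
      · exact h
  rcases hab with ⟨y, hy⟩ | ⟨y, hy⟩
  · exact key a b y hy hne
  · have := key b a y hy (by rw [Sym2.eq_swap]; exact hne)
    exact this.symm

theorem listTree_isAcyclic (β : Type*) : (listTree β).IsAcyclic := by
  rw [isAcyclic_iff_forall_adj_isBridge]
  have key : ∀ (l : List β) (x : β), (listTree β).IsBridge s(l, l ++ [x]) := by
    intro l x
    rw [isBridge_iff]
    rintro ⟨p⟩
    have hinv : ∀ (a b : List β) (p : ((listTree β).deleteEdges {s(l, l ++ [x])}).Walk a b),
        ((l ++ [x]) <+: a ↔ (l ++ [x]) <+: b) := by
      intro a b p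
      induction p with
      | nil => rfl
      | cons h p ih =>
        rw [deleteEdges_adj] at h
        rw [← ih]
        exact listTree_adj_iff_prefix (l ++ [x]) _ _ l x rfl h.1 (by simpa using h.2)
    have h1 := (hinv _ _ p).mpr (List.prefix_refl _)
    have h2 := h1.length_le
    simp at h2
  intro v w hvw
  rcases hvw with ⟨x, rfl⟩ | ⟨x, rfl⟩
  · exact key v x
  · rw [Sym2.eq_swap]
    exact key w x

theorem toWord_mul_of {α : Type*} [DecidableEq α] (u : FreeGroup α) (a : α) :
    (u * FreeGroup.of a).toWord = u.toWord ++ [(a, true)] ∨
      u.toWord = (u * FreeGroup.of a).toWord ++ [(a, false)] := by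
  rw [FreeGroup.toWord_mul, FreeGroup.toWord_of]
  have hred : FreeGroup.IsReduced u.toWord := FreeGroup.isReduced_toWord
  rcases List.eq_nil_or_concat u.toWord with h | ⟨L, b, h⟩
  · left
    rw [h]
    rfl
  · rw [List.concat_eq_append] at h
    by_cases hb : b = (a, false)
    · right
      subst hb
      rw [h]
      have hL : FreeGroup.IsReduced L := by
        have hred' : FreeGroup.IsReduced (L ++ [(a, false)]) := by rw [← h]; exact hred
        exact List.IsChain.left_of_append hred'
      have hstep : FreeGroup.Red.Step (L ++ (a, false) :: (a, !false) :: []) (L ++ []) :=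
        FreeGroup.Red.Step.not
      have := FreeGroup.reduce.Step.eq hstep
      simp only [List.append_nil, Bool.not_false] at this
      rw [show L ++ [(a, false)] ++ [(a, true)] = L ++ [(a, false), (a, true)] by simp]
      rw [this, hL.reduce_eq]
    · left
      rw [h]
      apply FreeGroup.IsReduced.reduce_eq
      rw [← h]
      have h2 : FreeGroup.IsReduced ([b] ++ [(a, true)]) := by
        simp only [List.singleton_append]
        rw [FreeGroup.isReduced_cons_cons]
        refine ⟨?_, FreeGroup.IsReduced.singleton⟩
        intro h1
        cases b with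
        | mk b1 b2 =>
          simp at h1
          subst h1
          cases b2 with
          | true => rfl
          | false => exact absurd rfl hb
      have h1 : FreeGroup.IsReduced (L ++ [b]) := by rw [← h]; exact hred
      have := FreeGroup.IsReduced.append_overlap h1 h2 (by simp)
      rw [h]
      exact this

/-- The Cayley graph of a free group with respect to its free basis is acyclic. -/
theorem freeGroup_cayley_isAcyclic (α : Type*) :
    (SimpleGraph.mulCayley (Set.range (FreeGroup.of : α → FreeGroup α))).IsAcyclic := by
  classical
  have hadj : ∀ u v : FreeGroup α, ∀ a : α, u * FreeGroup.of a = v →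
      (listTree (α × Bool)).Adj u.toWord v.toWord := by
    intro u v a h
    subst h
    rcases toWord_mul_of u a with h | h
    · exact Or.inl ⟨_, h⟩
    · exact Or.inr ⟨_, h⟩
  let f : SimpleGraph.mulCayley (Set.range (FreeGroup.of : α → FreeGroup α)) →g
      listTree (α × Bool) :=
    { toFun := FreeGroup.toWord
      map_rel' := by
        intro u v huv
        rw [SimpleGraph.mulCayley_adj'] at huv
        obtain ⟨_, g, ⟨a, rfl⟩, h | h⟩ := huv
        · exact hadj u v a h
        · exact (hadj v u a h.symm).symm }
  exact (listTree_isAcyclic (α × Bool)).comap f FreeGroup.toWord_injective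

/-- A group that embeds in a free group, with a finite generating set sent into the free basis,
is word-hyperbolic. -/
theorem wordHyperbolic_of_injective_to_free {G : Type*} [Group G] {α : Type*}
    (e : G →* FreeGroup α) (he : Function.Injective e) (S : Finset G)
    (hS : Subgroup.closure (S : Set G) = ⊤)
    (hSe : ∀ g ∈ S, e g ∈ Set.range (FreeGroup.of : α → FreeGroup α)) : WordHyperbolic G := by
  apply wordHyperbolic_of_isAcyclic S hS
  let f : SimpleGraph.mulCayley (S : Set G) →g
      SimpleGraph.mulCayley (Set.range (FreeGroup.of : α → FreeGroup α)) :=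
    { toFun := e
      map_rel' := by
        intro u v huv
        rw [SimpleGraph.mulCayley_adj'] at huv ⊢
        obtain ⟨hne, g, hg, h⟩ := huv
        refine ⟨fun h' => hne (he h'), e g, hSe g hg, ?_⟩
        rcases h with h | h
        · left; rw [← h, map_mul]
        · right; rw [h, map_mul] }
  exact (freeGroup_cayley_isAcyclic α).comap f he

/-- Free groups of finite rank are word-hyperbolic. -/
theorem wordHyperbolic_freeGroup (α : Type*) [Finite α] : WordHyperbolic (FreeGroup α) := by
  classical
  have := Fintype.ofFinite α
  refine wordHyperbolic_of_injective_to_free (MonoidHom.id _) (fun _ _ h => h)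
    (Finset.univ.image FreeGroup.of) ?_ ?_
  · simp only [Finset.coe_image, Finset.coe_univ, Set.image_univ]
    exact FreeGroup.closure_range_of α
  · intro g hg
    simp only [Finset.mem_image, Finset.mem_univ, true_and] at hg
    obtain ⟨a, rfl⟩ := hg
    exact ⟨a, rfl⟩

end Vale.Agent.H50
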