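import Mathlib
import Vale.Agent.H50.FreeHyp

namespace Vale.Agent.H50

/-- Cyclic groups are word-hyperbolic. -/
theorem wordHyperbolic_of_isCyclic (G : Type*) [Group G] [IsCyclic G] : WordHyperbolic G := by
  by_cases hfin : Finite G
  · exact wordHyperbolic_of_finite G
  · have hinf : Infinite G := not_finite_iff_infinite.mp hfin
    obtain ⟨g, hg⟩ := IsCyclic.exists_generator (α := G)
    let e : G ≃* Multiplicative ℤ :=
      (zmodMulEquivOfGenerator hg (Nat.card_eq_zero_of_infinite)).symm
    have heg : e g = Multiplicative.ofAdd 1 :=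
      zmodMulEquivOfGenerator_symm_apply_generator hg (Nat.card_eq_zero_of_infinite)
    let φ : Multiplicative ℤ →* FreeGroup Unit := zpowersHom (FreeGroup Unit) (FreeGroup.of ())
    let ψ : FreeGroup Unit →* Multiplicative ℤ := FreeGroup.lift (fun _ => Multiplicative.ofAdd 1)
    have hψφ : ∀ x, ψ (φ x) = x := by
      intro x
      have : ψ.comp φ = MonoidHom.id _ := by
        apply MonoidHom.ext_mint
        simp [φ, ψ]
      exact DFunLike.congr_fun this x
    have hφinj : Function.Injective φ := Function.LeftInverse.injective hψφ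
    refine wordHyperbolic_of_injective_to_free (φ.comp e.toMonoidHom)
      (hφinj.comp e.injective) {g} ?_ ?_
    · rw [Finset.coe_singleton, ← Subgroup.zpowers_eq_closure]
      exact (Subgroup.eq_top_iff' _).mpr hg
    · intro x hx
      rw [Finset.mem_singleton] at hx
      subst hx
      refine ⟨(), ?_⟩
      simp [φ, heg]

end Vale.Agent.H50
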