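import Mathlib
import Vale.Agent.H50.CyclicHyp
import Vale.Agent.H50.BSDefs

namespace Vale.Agent.H50

/-- the relator `a^p b^q` -/
abbrev tkRel (p q : ℤ) : FreeGroup (Fin 2) := FreeGroup.of 0 ^ p * FreeGroup.of 1 ^ q

/-- the one-relator group `⟨a, b | a^p b^q⟩` -/
abbrev TK (p q : ℤ) : Type := PresentedGroup ({tkRel p q} : Set (FreeGroup (Fin 2)))

theorem tk_rel (p q : ℤ) :
    (PresentedGroup.of 0 : TK p q) ^ p * (PresentedGroup.of 1 : TK p q) ^ q = 1 := by
  have := PresentedGroup.one_of_mem (rels := ({tkRel p q} : Set (FreeGroup (Fin 2))))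
    (Set.mem_singleton _)
  simp only [tkRel, map_mul, map_zpow] at this
  exact this

theorem mem_zpowers_of_rel_left {G : Type*} [Group G] (A B : G) (p q : ℤ)
    (hrel : A ^ p * B ^ q = 1) (h : p.natAbs = 1) : A ∈ Subgroup.zpowers B := by
  rcases Int.natAbs_eq p with hp | hp
  · rw [hp, h] at hrel
    simp only [Nat.cast_one, zpow_one] at hrel
    rw [eq_inv_of_mul_eq_one_left hrel]
    exact Subgroup.inv_mem _ (Subgroup.zpow_mem_zpowers _ _)
  · rw [hp, h] at hrel
    simp only [Nat.cast_one, zpow_neg, zpow_one] at hrel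
    rw [inv_mul_eq_one.mp hrel]
    exact Subgroup.zpow_mem_zpowers _ _

theorem mem_zpowers_of_rel_right {G : Type*} [Group G] (A B : G) (p q : ℤ)
    (hrel : A ^ p * B ^ q = 1) (h : q.natAbs = 1) : B ∈ Subgroup.zpowers A := by
  rcases Int.natAbs_eq q with hq | hq
  · rw [hq, h] at hrel
    simp only [Nat.cast_one, zpow_one] at hrel
    rw [eq_inv_of_mul_eq_one_right hrel]
    exact Subgroup.inv_mem _ (Subgroup.zpow_mem_zpowers _ _)
  · rw [hq, h] at hrel
    simp only [Nat.cast_one, zpow_neg, zpow_one] at hrel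
    rw [← mul_inv_eq_one.mp hrel]
    exact Subgroup.zpow_mem_zpowers _ _

theorem tk_isCyclic (p q : ℤ) (h : p.natAbs = 1 ∨ q.natAbs = 1) : IsCyclic (TK p q) := by
  have hrel := tk_rel p q
  rw [isCyclic_iff_exists_zpowers_eq_top]
  rcases h with h | h
  · refine ⟨PresentedGroup.of 1, ?_⟩
    rw [Subgroup.eq_top_iff']
    apply PresentedGroup.generated_by
    intro j
    fin_cases j
    · exact mem_zpowers_of_rel_left _ _ p q hrel h
    · exact Subgroup.mem_zpowers _
  · refine ⟨PresentedGroup.of 0, ?_⟩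
    rw [Subgroup.eq_top_iff']
    apply PresentedGroup.generated_by
    intro j
    fin_cases j
    · exact Subgroup.mem_zpowers _
    · exact mem_zpowers_of_rel_right _ _ p q hrel h

end Vale.Agent.H50
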