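import Mathlib
import Vale.Agent.H50.TorusKnot
import Vale.Agent.H50.AffRep

namespace Vale.Agent.H50

theorem bs11_comm :
    Commute (PresentedGroup.of 0 : BS 1 1) (PresentedGroup.of 1 : BS 1 1) := by
  have h0 := PresentedGroup.one_of_mem (rels := ({bsRel 1 1} : Set (FreeGroup (Fin 2))))
    (Set.mem_singleton _)
  have this : (PresentedGroup.mk ({bsRel 1 1} : Set (FreeGroup (Fin 2))))
      (FreeGroup.of 1 * FreeGroup.of 0 ^ (1 : ℤ) * (FreeGroup.of 1)⁻¹ *
        (FreeGroup.of 0 ^ (1 : ℤ))⁻¹) = 1 := h0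
  simp only [map_mul, map_zpow, map_inv, zpow_one] at this
  have h2 : (PresentedGroup.of 1 : BS 1 1) * PresentedGroup.of 0 =
      PresentedGroup.of 0 * PresentedGroup.of 1 := by
    have h3 := mul_inv_eq_one.mp this
    exact mul_inv_eq_iff_eq_mul.mp h3
  exact h2.symm

theorem bs11_surj (x : BS 1 1) :
    ∃ i j : ℤ, x = (PresentedGroup.of 0 : BS 1 1) ^ i * (PresentedGroup.of 1 : BS 1 1) ^ j := by
  let ψ : Multiplicative ℤ × Multiplicative ℤ →* BS 1 1 :=
    MonoidHom.noncommCoprod (zpowersHom _ (PresentedGroup.of 0 : BS 1 1))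
      (zpowersHom _ (PresentedGroup.of 1 : BS 1 1))
      (fun m n => by
        simp only [zpowersHom_apply]
        exact bs11_comm.zpow_zpow _ _)
  have hx : x ∈ ψ.range := by
    apply PresentedGroup.generated_by
    intro j
    fin_cases j
    · exact ⟨(Multiplicative.ofAdd 1, 1), by simp [ψ]⟩
    · exact ⟨(1, Multiplicative.ofAdd 1), by simp [ψ]⟩
  obtain ⟨⟨m, n⟩, rfl⟩ := hx
  exact ⟨Multiplicative.toAdd m, Multiplicative.toAdd n, by simp [ψ]⟩

/-- `⟨a, b | a^p b^q⟩` contains a copy of `BS(1,1) = ℤ²` when `|p|, |q| ≥ 2`. -/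
theorem tk_not_bsFree (p q : ℤ) (hp : 2 ≤ p.natAbs) (hq : 2 ≤ q.natAbs) : ¬ BSFree (TK p q) := by
  intro hfree
  have hp0 : p ≠ 0 := by intro h; simp [h] at hp
  have hq0 : q ≠ 0 := by intro h; simp [h] at hq
  obtain ⟨ζ, hζ, hζ1⟩ := exists_root_of_unity p.natAbs hp
  obtain ⟨ξ, hξ, hξ1⟩ := exists_root_of_unity q.natAbs hq
  have hζp : ζ ^ p = 1 := zpow_eq_one_of_natAbs ζ p hζ
  have hξq : ξ ^ q = 1 := zpow_eq_one_of_natAbs ξ q hξ
  obtain ⟨A, hA⟩ : ∃ A : TK p q, A = PresentedGroup.of 0 := ⟨_, rfl⟩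
  obtain ⟨B, hB⟩ : ∃ B : TK p q, B = PresentedGroup.of 1 := ⟨_, rfl⟩
  have hrel : A ^ p * B ^ q = 1 := by rw [hA, hB]; exact tk_rel p q
  -- the two homomorphisms out of the group
  have h1 : ∀ r ∈ ({tkRel p q} : Set (FreeGroup (Fin 2))),
      FreeGroup.lift (![Multiplicative.ofAdd q, Multiplicative.ofAdd (-p)] :
        Fin 2 → Multiplicative ℤ) r = 1 := by
    intro r hr
    rw [Set.mem_singleton_iff] at hr
    subst hr
    simp only [tkRel, map_mul, map_zpow, FreeGroup.lift_apply_of, Matrix.cons_val_zero,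
      Matrix.cons_val_one]
    rw [← ofAdd_zsmul, ← ofAdd_zsmul, ← ofAdd_add]
    simp only [smul_eq_mul]
    rw [show p * q + q * -p = 0 by ring]
    rfl
  let Φ₁ : TK p q →* Multiplicative ℤ := PresentedGroup.toGroup h1
  have h2 : ∀ r ∈ ({tkRel p q} : Set (FreeGroup (Fin 2))),
      FreeGroup.lift (![diagHom ζ, affHom ξ] : Fin 2 → (Matrix (Fin 2) (Fin 2) ℂ)ˣ) r = 1 := by
    intro r hr
    rw [Set.mem_singleton_iff] at hr
    subst hr
    simp only [tkRel, map_mul, map_zpow, FreeGroup.lift_apply_of, Matrix.cons_val_zero,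
      Matrix.cons_val_one]
    rw [← map_zpow, ← map_zpow, hζp, hξq, map_one, map_one, mul_one]
  let Φ₂ : TK p q →* (Matrix (Fin 2) (Fin 2) ℂ)ˣ := PresentedGroup.toGroup h2
  have hΦ₁A : Φ₁ A = Multiplicative.ofAdd q := by
    simp [Φ₁, hA, PresentedGroup.toGroup.of]
  have hΦ₂A : Φ₂ A = diagHom ζ := by
    simp [Φ₂, hA, PresentedGroup.toGroup.of]
  have hΦ₂B : Φ₂ B = affHom ξ := by
    simp [Φ₂, hB, PresentedGroup.toGroup.of]
  -- the central element and the commutator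
  obtain ⟨z, hz⟩ : ∃ z : TK p q, z = A ^ p := ⟨_, rfl⟩
  obtain ⟨w, hw⟩ : ∃ w : TK p q, w = A * B * A⁻¹ * B⁻¹ := ⟨_, rfl⟩
  rw [← hz] at hrel
  have hzA : Commute z A := by rw [hz]; exact (Commute.refl A).zpow_left p
  have hzB : Commute z B := by
    have : z = (B ^ q)⁻¹ := eq_inv_of_mul_eq_one_left hrel
    rw [this]
    exact ((Commute.refl B).zpow_left q).inv_left
  have hzw : Commute z w := by
    rw [hw]
    exact ((hzA.mul_right hzB).mul_right hzA.inv_right).mul_right hzB.inv_right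
  have h3 : ∀ r ∈ ({bsRel 1 1} : Set (FreeGroup (Fin 2))),
      FreeGroup.lift (![z, w] : Fin 2 → TK p q) r = 1 := by
    intro r hr
    rw [Set.mem_singleton_iff] at hr
    subst hr
    simp only [bsRel, map_mul, map_zpow, map_inv, FreeGroup.lift_apply_of, Matrix.cons_val_zero,
      Matrix.cons_val_one, zpow_one]
    rw [← hzw.eq]
    group
  let f : BS 1 1 →* TK p q := PresentedGroup.toGroup h3
  apply hfree 1 1 one_ne_zero one_ne_zero f
  rw [injective_iff_map_eq_one]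
  intro x hx
  obtain ⟨i, j, rfl⟩ := bs11_surj x
  have hfx : z ^ i * w ^ j = 1 := by
    simpa [f, PresentedGroup.toGroup.of] using hx
  have hΦ₂z : Φ₂ z = 1 := by
    rw [hz, map_zpow, hΦ₂A, ← map_zpow, hζp, map_one]
  have hΦ₂w : Φ₂ w =
      trHom (Multiplicative.ofAdd (((ζ : ℂ) - 1) * (1 - (ξ : ℂ)))) := by
    rw [hw, map_mul, map_mul, map_mul, map_inv, map_inv, hΦ₂A, hΦ₂B]
    exact diag_aff_commutator ζ ξ
  have hj : j = 0 := by
    have h4 := congrArg Φ₂ hfx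
    rw [map_mul, map_zpow, map_zpow, hΦ₂z, hΦ₂w, one_zpow, one_mul, map_one, ← map_zpow] at h4
    have h5 := trHom_eq_one h4
    rw [toAdd_zpow, toAdd_ofAdd, zsmul_eq_mul] at h5
    have hs : ((ζ : ℂ) - 1) * (1 - (ξ : ℂ)) ≠ 0 :=
      mul_ne_zero (sub_ne_zero.mpr hζ1) (sub_ne_zero.mpr (Ne.symm hξ1))
    rcases mul_eq_zero.mp h5 with h6 | h6
    · exact_mod_cast h6
    · exact absurd h6 hs
  subst hj
  have hi : i = 0 := by
    rw [zpow_zero, mul_one] at hfx
    have h4 := congrArg Φ₁ hfx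
    rw [hz, ← zpow_mul, map_zpow, hΦ₁A, map_one, ← ofAdd_zsmul] at h4
    have h5 : (p * i) * q = 0 := by
      have := congrArg Multiplicative.toAdd h4
      rw [toAdd_ofAdd, smul_eq_mul] at this
      exact this
    rcases mul_eq_zero.mp h5 with h6 | h6
    · rcases mul_eq_zero.mp h6 with h7 | h7
      · exact absurd h7 hp0
      · exact h7
    · exact absurd h6 hq0
  subst hi
  simp

end Vale.Agent.H50
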